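import Vale.Agent.P063_h5.Final

/-!
The Friedgut-Kalai threshold-width conjecture, for graph properties (`r = 2`) and for `r`-uniform
hypergraph properties (`r ≥ 3`): the threshold width of every nontrivial increasing property is at
most `C (log n)^(-r/(r-1))`.
-/

namespace Vale.Agent.Results.P063.FriedgutKalai

open Vale.Agent.P063h5

theorem result : ∀ r : ℕ, 2 ≤ r → ∀ ε : ℝ, 0 < ε → ε < 1 / 2 →
    ∃ C : ℝ, 0 < C ∧ ∀ n : ℕ, r ≤ n → ∀ P : Set (Hyp n r),
      IsInvariant P → IsIncreasing P → IsNontrivial P →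
        width P ε ≤ C * (Real.log n) ^ (-((r : ℝ) / (r - 1))) :=
  fun r hr ε hε hε2 => width_le r hr ε hε hε2

end Vale.Agent.Results.P063.FriedgutKalai
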